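import Vale.Agent.P207.N4.Dim
import Vale.Agent.P207.N4.H77.Rates2
import Vale.Agent.P207.H686.Hada

/-!
# P207, theorem H: the rates from the entropy

The determinant of the flow on the unstable leaves is `e^{ht}` up to a constant, `h = A.h`. With
`a ≤ U ≤ b` all singular values are between `e^{a't}` and `e^{b't}` up to a constant,
`a' = max a (h - (m-1) b)`, `b' = min b (h - (m-1) a)`, `m = dim`.
-/

open Set Filter Topology Metric MeasureTheory
open scoped ContDiff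

set_option linter.unusedSectionVars false

noncomputable section

namespace Vale.Agent.P207.N4.H686

open Vale.Agent.P207.N3
open Vale.Agent.P207.N4.H77 (Dt Dt_ge Dt_le Dt_back_le Dt_neg_comp)

variable [Dim]

variable {Γ X B : Type} [Group Γ] [MetricSpace X] [ProperSpace X] [MulAction Γ X]
  [IsIsometricSMul Γ X] [TopologicalSpace B] [CompactSpace B] [T2Space B] [MulAction Γ B]
  [ContinuousConstSMul Γ B] [MeasurableSpace B] [BorelSpace B]

variable {L : Leaf Γ X B}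

/-- the density at the centre is bounded, and bounded below -/
theorem s_bounds (A : Area L) : ∃ c C : ℝ, 0 < c ∧ 0 < C ∧ ∀ x, c ≤ A.s x 0 ∧ A.s x 0 ≤ C := by
  obtain ⟨K, hK, hcov⟩ := L.cocompact
  have h0 : (0 : E2) ∈ ball (0 : E2) 3 := mem_ball_self (by norm_num)
  have hcont : Continuous fun x : X => A.s x 0 := by
    have h1 := A.s_cont 0
    have h2 : ContinuousOn (fun p : X × E2 => A.s p.1 p.2) (univ ×ˢ ball 0 3) := by
      have h3 : (fun p : X × E2 => A.s p.1 p.2) =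
          fun p => (continuousMultilinearCurryFin0 ℝ E2 ℝ)
            (iteratedFDeriv ℝ 0 (A.s p.1) p.2) := by
        funext p
        simp [iteratedFDeriv_zero_eq_comp]
      rw [h3]
      exact (continuousMultilinearCurryFin0 ℝ E2 ℝ).continuous.comp_continuousOn h1
    have h4 : Continuous fun x : X => ((x, (0 : E2)) : X × E2) := by fun_prop
    exact h2.comp_continuous h4 fun x => ⟨mem_univ _, h0⟩
  rcases K.eq_empty_or_nonempty with rfl | hne
  · refine ⟨1, 1, one_pos, one_pos, fun x => ?_⟩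
    obtain ⟨g, hg⟩ := hcov x
    exact absurd hg (notMem_empty _)
  obtain ⟨x1, -, h1⟩ := hK.exists_isMinOn hne hcont.continuousOn
  obtain ⟨x2, -, h2⟩ := hK.exists_isMaxOn hne hcont.continuousOn
  refine ⟨A.s x1 0, A.s x2 0, A.s_pos x1 0 h0, A.s_pos x2 0 h0, fun x => ?_⟩
  obtain ⟨g, hg⟩ := hcov x
  rw [← A.s_smul g x 0 h0]
  exact ⟨h1 hg, h2 hg⟩

/-- the determinant of the flow -/
theorem det_Dt (A : Area L) (x : X) (t : ℝ) :
    A.s x 0 = Real.exp (-(A.h * t)) * |LinearMap.det (Dt L t x : E2 →ₗ[ℝ] E2)| *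
      A.s (L.φ t x) 0 := by
  have h1 := A.s_trans x (L.φ t x) (L.em_φ t x).symm 0 (H77.zero_mem_dm L t x)
  rw [H77.tau_zero, L.lv_φ] at h1
  have h2 : A.h * (L.lv x - (L.lv x + t)) = -(A.h * t) := by ring
  rw [h2] at h1
  exact h1

theorem det_bounds (A : Area L) : ∃ C : ℝ, 1 ≤ C ∧ ∀ x t,
    Real.exp (A.h * t) ≤ C * |LinearMap.det (Dt L t x : E2 →ₗ[ℝ] E2)| ∧
    |LinearMap.det (Dt L t x : E2 →ₗ[ℝ] E2)| ≤ C * Real.exp (A.h * t) := by
  obtain ⟨c, C, hc, hC, h⟩ := s_bounds A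
  obtain ⟨x0⟩ := L.nonempty
  have hcC : c ≤ C := (h x0).1.trans (h x0).2
  refine ⟨C / c, (one_le_div hc).2 hcC, fun x t => ?_⟩
  set d := |LinearMap.det (Dt L t x : E2 →ₗ[ℝ] E2)| with hd
  have hd0 : 0 ≤ d := abs_nonneg _
  have hE := Real.exp_pos (A.h * t)
  have h1 := det_Dt A x t
  rw [← hd] at h1
  have h2 : Real.exp (A.h * t) * A.s x 0 = d * A.s (L.φ t x) 0 := by
    rw [h1, ← mul_assoc, ← mul_assoc, ← Real.exp_add, add_neg_cancel, Real.exp_zero, one_mul]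
  constructor
  · rw [div_mul_eq_mul_div, le_div_iff₀ hc]
    calc Real.exp (A.h * t) * c ≤ Real.exp (A.h * t) * A.s x 0 :=
          mul_le_mul_of_nonneg_left (h x).1 hE.le
      _ = d * A.s (L.φ t x) 0 := h2
      _ ≤ d * C := mul_le_mul_of_nonneg_left (h _).2 hd0
      _ = C * d := mul_comm _ _
  · rw [div_mul_eq_mul_div, le_div_iff₀ hc]
    calc d * c ≤ d * A.s (L.φ t x) 0 := mul_le_mul_of_nonneg_left (h _).1 hd0
      _ = Real.exp (A.h * t) * A.s x 0 := h2.symm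
      _ ≤ Real.exp (A.h * t) * C := mul_le_mul_of_nonneg_left (h x).2 hE.le
      _ = C * Real.exp (A.h * t) := mul_comm _ _

/-- **all rates, up to a constant** -/
theorem rates_const (M : Metr L) (A : Area L) {a b : ℝ}
    (ha : ∀ x v, a * ‖v‖ ^ 2 ≤ inner ℝ (M.U x v) v)
    (hb : ∀ x v, inner ℝ (M.U x v) v ≤ b * ‖v‖ ^ 2) :
    ∃ C : ℝ, 1 ≤ C ∧ ∀ t, 0 ≤ t → ∀ x v,
      (Real.exp (a * t) * ‖v‖ ≤ C * ‖Dt L t x v‖ ∧
        Real.exp ((A.h - (Dim.m - 1) * b) * t) * ‖v‖ ≤ C * ‖Dt L t x v‖) ∧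
      (‖Dt L t x v‖ ≤ C * (Real.exp (b * t) * ‖v‖) ∧
        ‖Dt L t x v‖ ≤ C * (Real.exp ((A.h - (Dim.m - 1) * a) * t) * ‖v‖)) := by
  obtain ⟨C, hC, hdet⟩ := det_bounds A
  have hC0 : 0 ≤ C := by linarith
  obtain ⟨k, hk⟩ : ∃ k, Dim.m = k + 1 := ⟨Dim.m - 1, by have := Dim.two_le; omega⟩
  have hfin : Module.finrank ℝ E2 = k + 1 := by
    rw [finrank_euclideanSpace, Fintype.card_fin, hk]
  have hkr : ((Dim.m : ℕ) : ℝ) - 1 = k := by
    rw [hk]; push_cast; ring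
  refine ⟨C, hC, fun t ht x v => ?_⟩
  have h1 := Dt_ge M ha x ht v
  have h2 := Dt_le M hb x ht v
  obtain ⟨hd1, hd2⟩ := hdet x t
  set d := |LinearMap.det (Dt L t x : E2 →ₗ[ℝ] E2)| with hd
  have hd0 : 0 ≤ d := abs_nonneg _
  have hN : ‖Dt L t x‖ ≤ Real.exp (b * t) :=
    ContinuousLinearMap.opNorm_le_bound _ (Real.exp_pos _).le fun w => Dt_le M hb x ht w
  have hN' : ‖Dt L (-t) (L.φ t x)‖ ≤ Real.exp (-a * t) := Dt_back_le M ha _ ht
  have e1 : ∀ c : ℝ, Real.exp ((A.h - k * c) * t) = Real.exp (A.h * t) * Real.exp (-c * t) ^ k := by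
    intro c
    rw [← Real.exp_nat_mul, ← Real.exp_add]
    congr 1
    ring
  rw [hkr]
  refine ⟨⟨?_, ?_⟩, ?_, ?_⟩
  · exact h1.trans (le_mul_of_one_le_left (norm_nonneg _) hC)
  · have h3 := Vale.Agent.P207.H686.det_norm_le (Dt L t x) hfin v
    rw [← hd] at h3
    have h4 : d * ‖v‖ ≤ Real.exp (b * t) ^ k * ‖Dt L t x v‖ :=
      h3.trans (mul_le_mul_of_nonneg_right (pow_le_pow_left₀ (norm_nonneg _) hN k)
        (norm_nonneg _))
    have h5 : Real.exp (-b * t) ^ k * Real.exp (b * t) ^ k = 1 := by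
      rw [← mul_pow, ← Real.exp_add]
      have : -b * t + b * t = 0 := by ring
      rw [this, Real.exp_zero, one_pow]
    have hp : 0 ≤ Real.exp (-b * t) ^ k := by positivity
    rw [e1 b]
    calc Real.exp (A.h * t) * Real.exp (-b * t) ^ k * ‖v‖
        = Real.exp (-b * t) ^ k * ‖v‖ * Real.exp (A.h * t) := by ring
      _ ≤ Real.exp (-b * t) ^ k * ‖v‖ * (C * d) :=
          mul_le_mul_of_nonneg_left hd1 (by positivity)
      _ = C * (Real.exp (-b * t) ^ k * (d * ‖v‖)) := by ring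
      _ ≤ C * (Real.exp (-b * t) ^ k * (Real.exp (b * t) ^ k * ‖Dt L t x v‖)) := by gcongr
      _ = C * ((Real.exp (-b * t) ^ k * Real.exp (b * t) ^ k) * ‖Dt L t x v‖) := by ring
      _ = _ := by rw [h5, one_mul]
  · refine h2.trans (le_mul_of_one_le_left ?_ hC)
    positivity
  · have h3 := Vale.Agent.P207.H686.norm_le_det (Dt L t x) (Dt L (-t) (L.φ t x))
      (Dt_neg_comp L t x) hfin v
    rw [← hd] at h3
    have h4 : ‖Dt L (-t) (L.φ t x)‖ ^ k ≤ Real.exp (-a * t) ^ k :=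
      pow_le_pow_left₀ (norm_nonneg _) hN' k
    rw [e1 a]
    calc ‖Dt L t x v‖ ≤ d * ‖Dt L (-t) (L.φ t x)‖ ^ k * ‖v‖ := h3
      _ ≤ (C * Real.exp (A.h * t)) * Real.exp (-a * t) ^ k * ‖v‖ := by gcongr
      _ = _ := by ring

/-- **the rates from the entropy**, exact for large times -/
theorem det_rates (M : Metr L) (A : Area L) {a b : ℝ} (ha0 : 0 < a) (hab : a ≤ b)
    (ha : ∀ x v, a * ‖v‖ ^ 2 ≤ inner ℝ (M.U x v) v)
    (hb : ∀ x v, inner ℝ (M.U x v) v ≤ b * ‖v‖ ^ 2)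
    (hQ : b < 2 * a ∨ A.h < (Dim.m + 1) * a ∨ (2 * Dim.m - 1) * b < 2 * A.h) :
    ∃ a' b' T : ℝ, 0 < a' ∧ a' ≤ b' ∧ b' < 2 * a' ∧ 0 < T ∧ ∀ t, T ≤ t → ∀ x v,
      Real.exp (a' * t) * ‖v‖ ≤ ‖fderiv ℝ (L.τ x (L.φ t x)) 0 v‖ ∧
        ‖fderiv ℝ (L.τ x (L.φ t x)) 0 v‖ ≤ Real.exp (b' * t) * ‖v‖ := by
  obtain ⟨C, hC, hr⟩ := rates_const M A ha hb
  set α : ℝ := max a (A.h - (Dim.m - 1) * b) with hα
  set β : ℝ := min b (A.h - (Dim.m - 1) * a) with hβ
  have hα0 : 0 < α := ha0.trans_le (le_max_left _ _)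
  have hβα : β < 2 * α := by
    have h1 : a ≤ α := le_max_left _ _
    have h2 : A.h - (Dim.m - 1) * b ≤ α := le_max_right _ _
    have h3 : β ≤ b := min_le_left _ _
    have h4 : β ≤ A.h - (Dim.m - 1) * a := min_le_right _ _
    rcases hQ with h | h | h
    · linarith
    · nlinarith
    · nlinarith
  have hlo : ∀ t, 0 ≤ t → ∀ x v, Real.exp (α * t) * ‖v‖ ≤ C * ‖Dt L t x v‖ := by
    intro t ht x v
    rcases max_cases a (A.h - (Dim.m - 1) * b) with ⟨h, -⟩ | ⟨h, -⟩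
    · rw [hα, h]; exact (hr t ht x v).1.1
    · rw [hα, h]; exact (hr t ht x v).1.2
  have hhi : ∀ t, 0 ≤ t → ∀ x v, ‖Dt L t x v‖ ≤ C * (Real.exp (β * t) * ‖v‖) := by
    intro t ht x v
    rcases min_cases b (A.h - (Dim.m - 1) * a) with ⟨h, -⟩ | ⟨h, -⟩
    · rw [hβ, h]; exact (hr t ht x v).2.1
    · rw [hβ, h]; exact (hr t ht x v).2.2
  set ε : ℝ := min (α / 2) ((2 * α - β) / 4) with hε
  have hε0 : 0 < ε := lt_min (by linarith) (by linarith)
  have hε1 : ε ≤ α / 2 := min_le_left _ _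
  have hε2 : ε ≤ (2 * α - β) / 4 := min_le_right _ _
  have hC0 : 0 < C := by linarith
  refine ⟨α - ε, max (β + ε) (α - ε), (Real.log C + 1) / ε, by linarith, le_max_right _ _,
    max_lt (by linarith) (by linarith), div_pos (by linarith [Real.log_nonneg hC]) hε0,
    fun t ht x v => ?_⟩
  have hlog : 0 ≤ Real.log C := Real.log_nonneg hC
  have ht0 : 0 ≤ t := le_trans (div_nonneg (by linarith) hε0.le) ht
  have hεt : Real.log C ≤ ε * t := by
    rw [div_le_iff₀ hε0] at ht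
    linarith
  have hCt : C ≤ Real.exp (ε * t) := by
    rw [← Real.exp_log hC0]
    exact Real.exp_le_exp.2 hεt
  constructor
  · have h1 := hlo t ht0 x v
    have h2 : Real.exp ((α - ε) * t) * Real.exp (ε * t) = Real.exp (α * t) := by
      rw [← Real.exp_add]; congr 1; ring
    have h3 : C * (Real.exp ((α - ε) * t) * ‖v‖) ≤ C * ‖Dt L t x v‖ := by
      calc C * (Real.exp ((α - ε) * t) * ‖v‖)
          ≤ Real.exp (ε * t) * (Real.exp ((α - ε) * t) * ‖v‖) := by gcongr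
        _ = Real.exp (α * t) * ‖v‖ := by rw [← h2]; ring
        _ ≤ _ := h1
    exact le_of_mul_le_mul_left h3 hC0
  · have h1 := hhi t ht0 x v
    have h2 : Real.exp (ε * t) * Real.exp (β * t) = Real.exp ((β + ε) * t) := by
      rw [← Real.exp_add]; congr 1; ring
    calc ‖Dt L t x v‖ ≤ C * (Real.exp (β * t) * ‖v‖) := h1
      _ ≤ Real.exp (ε * t) * (Real.exp (β * t) * ‖v‖) := by gcongr
      _ = Real.exp ((β + ε) * t) * ‖v‖ := by rw [← h2]; ring
      _ ≤ Real.exp (max (β + ε) (α - ε) * t) * ‖v‖ := by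
          refine mul_le_mul_of_nonneg_right (Real.exp_le_exp.2 ?_) (norm_nonneg _)
          exact mul_le_mul_of_nonneg_right (le_max_left _ _) ht0

end Vale.Agent.P207.N4.H686
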