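import Vale.Agent.P207.N4.H751.ZI1
import Vale.Agent.P207.N4.H58.Pic

/-!
# P207, line N4: the adapter from the affine charts `Aff L` of the picture to `AffIn L`
-/

set_option linter.all false

open Set Filter Topology Metric
open scoped ContDiff

noncomputable section

namespace Vale.Agent.P207.N4.H686

open Vale.Agent.P207.N3 Vale.Agent.P207.N3.Ten Vale.Agent.P207.N4.Ten

variable [Dim]

variable {Γ X B : Type} [Group Γ] [MetricSpace X] [ProperSpace X] [MulAction Γ X]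
  [IsIsometricSMul Γ X] [TopologicalSpace B] [CompactSpace B] [T2Space B] [MulAction Γ B]
  [ContinuousConstSMul Γ B]

variable {L : Leaf Γ X B} (F : Aff L)

theorem dsc_spec (x : X) {q : E2} (hq : q ∈ closedBall (0 : E2) 2) :
    F.dsc x q ∈ ball (0 : E2) 1 ∧ L.e x (F.dsc x q) = F.pt x q := by
  obtain ⟨u, hu, hue⟩ := F.unit x q hq
  have h1 : u ∈ closedBall (0 : E2) 3 :=
    (ball_subset_closedBall.trans (closedBall_subset_closedBall (by norm_num))) hu
  have h2 : F.dsc x q = u := by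
    unfold Aff.dsc
    rw [← hue]
    exact (L.e_inj x).leftInvOn_invFunOn h1
  rw [h2]
  exact ⟨hu, hue⟩

theorem dsc_mem3 (x : X) {q : E2} (hq : q ∈ ball (0 : E2) 2) : F.dsc x q ∈ ball (0 : E2) 3 :=
  ball_subset_ball (by norm_num) (dsc_spec F x (ball_subset_closedBall hq)).1

theorem e_dsc (x : X) {q : E2} (hq : q ∈ ball (0 : E2) 2) : L.e x (F.dsc x q) = F.pt x q :=
  (dsc_spec F x (ball_subset_closedBall hq)).2

theorem dsc_cont : ContinuousOn (fun p : X × E2 => F.dsc p.1 p.2)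
    ((univ : Set X) ×ˢ closedBall (0 : E2) 2) := by
  rintro ⟨x0, q0⟩ hp
  have hq0 : q0 ∈ closedBall (0 : E2) 2 := hp.2
  have hs0 := dsc_spec F x0 hq0
  refine (tendsto_iff_ultrafilter (fun p : X × E2 => F.dsc p.1 p.2)
    (𝓝[(univ : Set X) ×ˢ closedBall (0 : E2) 2] (x0, q0)) (𝓝 (F.dsc x0 q0))).2 ?_
  intro U hU
  have hUp : (U : Filter (X × E2)) ≤ 𝓝 (x0, q0) := hU.trans nhdsWithin_le_nhds
  have hUS : (univ : Set X) ×ˢ closedBall (0 : E2) 2 ∈ (U : Filter (X × E2)) :=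
    hU self_mem_nhdsWithin
  have h0 : (fun q : X × E2 => F.dsc q.1 q.2) ⁻¹' (closedBall (0 : E2) 1) ∈
      (U : Filter (X × E2)) :=
    mem_of_superset hUS fun q hq => ball_subset_closedBall (dsc_spec F q.1 hq.2).1
  have h1 : ((U.map fun q : X × E2 => F.dsc q.1 q.2 : Ultrafilter E2) : Filter E2) ≤
      𝓟 (closedBall 0 1) := le_principal_iff.2 h0
  obtain ⟨u, hu1, hu⟩ := (isCompact_closedBall (0 : E2) 1).ultrafilter_le_nhds _ h1
  have hu' : Tendsto (fun q : X × E2 => F.dsc q.1 q.2) U (𝓝 u) := hu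
  have hfst : Tendsto (fun q : X × E2 => q.1) U (𝓝 x0) :=
    (continuous_fst.tendsto (x0, q0)).mono_left hUp
  have hu3 : u ∈ closedBall (0 : E2) 3 := closedBall_subset_closedBall (by norm_num) hu1
  have h2 : Tendsto (fun q : X × E2 => ((q.1, F.dsc q.1 q.2) : X × E2)) U
      (𝓝[(univ : Set X) ×ˢ closedBall (0 : E2) 3] (x0, u)) := by
    refine tendsto_nhdsWithin_iff.2 ⟨hfst.prodMk_nhds hu', ?_⟩
    refine mem_of_superset hUS fun q hq => ?_
    exact ⟨mem_univ _, closedBall_subset_closedBall (by norm_num)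
      (ball_subset_closedBall (dsc_spec F q.1 hq.2).1)⟩
  have h3 : Tendsto (fun q : X × E2 => L.e q.1 (F.dsc q.1 q.2)) U (𝓝 (L.e x0 u)) :=
    (L.e_cont (x0, u) ⟨mem_univ _, hu3⟩).tendsto.comp h2
  have h4 : Tendsto (fun q : X × E2 => F.pt q.1 q.2) U (𝓝 (F.pt x0 q0)) :=
    (F.pt_cont.tendsto (x0, q0)).mono_left hUp
  have h5 : Tendsto (fun q : X × E2 => L.e q.1 (F.dsc q.1 q.2)) U (𝓝 (F.pt x0 q0)) := by
    refine h4.congr' ?_
    refine mem_of_superset hUS fun q hq => ?_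
    exact (dsc_spec F q.1 hq.2).2.symm
  have h6 : L.e x0 u = L.e x0 (F.dsc x0 q0) := by
    rw [hs0.2]
    exact tendsto_nhds_unique h3 h5
  have h7 : u = F.dsc x0 q0 := L.e_inj x0 hu3
    (closedBall_subset_closedBall (by norm_num) (ball_subset_closedBall hs0.1)) h6
  rw [← h7]
  exact hu'

theorem dsc_jc : JC F.dsc ((univ : Set X) ×ˢ ball (0 : E2) 2) :=
  JC_funInv (f := fun x u => F.ch x (L.e x u)) (S := (univ : Set X) ×ˢ ball (0 : E2) 3) F.jc
    (isOpen_univ.prod isOpen_ball)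
    ((dsc_cont F).mono (prod_mono subset_rfl ball_subset_closedBall))
    (fun p hp => ⟨mem_univ _, dsc_mem3 F p.1 hp.2⟩)
    (fun p hp => by rw [e_dsc F p.1 hp.2, F.ch_pt])
    (fun p hp => F.der_inv p.1 _ (dsc_mem3 F p.1 hp.2))

theorem fderiv_dsc (x : X) {p : E2} (hp : p ∈ ball (0 : E2) 2) :
    ∃ A : E2 ≃L[ℝ] E2,
      (A : E2 →L[ℝ] E2) = fderiv ℝ (fun u => F.ch x (L.e x u)) (F.dsc x p) ∧
      fderiv ℝ (F.dsc x) p = (A.symm : E2 →L[ℝ] E2) := by
  obtain ⟨A, hA⟩ := F.der_inv x _ (dsc_mem3 F x hp)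
  refine ⟨A, hA, ?_⟩
  have h1 : HasFDerivAt (fun u => F.ch x (L.e x u)) (A : E2 →L[ℝ] E2) (F.dsc x p) := by
    rw [hA]
    exact F.jc.hasFDerivAt (p := (x, F.dsc x p)) ⟨mem_univ _, dsc_mem3 F x hp⟩
  have h2 : HasFDerivAt (F.dsc x) (fderiv ℝ (F.dsc x) p) p :=
    (dsc_jc F).hasFDerivAt (p := (x, p)) ⟨mem_univ _, hp⟩
  have h3 : HasFDerivAt (fun q => F.ch x (L.e x (F.dsc x q)))
      ((A : E2 →L[ℝ] E2).comp (fderiv ℝ (F.dsc x) p)) p := h1.comp p h2
  have h4 : HasFDerivAt (fun q => F.ch x (L.e x (F.dsc x q))) (ContinuousLinearMap.id ℝ E2) p := by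
    refine (hasFDerivAt_id p).congr_of_eventuallyEq ?_
    filter_upwards [isOpen_ball.mem_nhds hp] with q hq
    rw [e_dsc F x hq, F.ch_pt]
    rfl
  have h5 := h3.unique h4
  refine ContinuousLinearMap.ext fun v => ?_
  have h6 : A (fderiv ℝ (F.dsc x) p v) = v := by
    have h7 := congrArg (fun T : E2 →L[ℝ] E2 => T v) h5
    exact h7
  show fderiv ℝ (F.dsc x) p v = A.symm v
  exact (A.symm_apply_eq.2 h6.symm).symm

theorem dsc_inv (x : X) {p : E2} (hp : p ∈ ball (0 : E2) 2) :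
    (fderiv ℝ (F.dsc x) p).IsInvertible := by
  obtain ⟨A, -, hA⟩ := fderiv_dsc F x hp
  exact ⟨A.symm, hA.symm⟩

theorem aff_dsc (x y : X) (h : L.em x = L.em y) :
    ∃ R : E2 ≃L[ℝ] E2, ∀ p, F.ch y (F.pt x p) = F.ch y (F.pt x 0) + R p := by
  have h1 : ∀ q, F.ch y (F.pt x q) = F.lin x y (q - F.ch x (L.ep y)) := by
    intro q
    rw [← F.leaf x y h q, F.ch_pt]
  refine ⟨F.lin x y, fun p => ?_⟩
  rw [h1, h1, map_sub, map_sub, map_zero]
  abel

/-- **the adapter** -/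
def toIn : H751.AffIn L where
  pt := F.pt
  ac := F.ch
  ac_pt := F.ch_pt
  pt_ac := F.pt_ch
  pt_ne := F.pt_ne
  pt_zero := F.pt_zero
  pt_smul := F.pt_smul
  pt_cont := F.pt_cont
  ac_cont := F.ch_cont
  aff := aff_dsc F
  chi := F.dsc
  chi_mem := fun x p hp => dsc_mem3 F x hp
  e_chi := fun x p hp => e_dsc F x hp
  chi_jc := dsc_jc F
  chi_inv := fun x p hp => dsc_inv F x hp

/-- the tensor of the adapter is the tensor in the affine coordinate -/
theorem Nh_toIn (T : Tens L) (x : X) {q : E2} (hq : q ∈ ball (0 : E2) 2) :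
    (toIn F).Nh T x q = F.Na T x q := by
  obtain ⟨A, hA, hA'⟩ := fderiv_dsc F x hq
  have h1 : (toIn F).dp x q = (A : E2 →L[ℝ] E2) := by
    show (fderiv ℝ (F.dsc x) q).inverse = _
    rw [hA', ContinuousLinearMap.inverse_equiv]
    rfl
  unfold H751.AffIn.Nh Aff.Na
  rw [h1, ← hA]
  rfl

end Vale.Agent.P207.N4.H686
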